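import Crest.Agent.R56.Core
import Crest.Prelude.Def_FinProb

/-!
Row 56: comparison with the definitions of the statements, and the Margulis-Russo formula.
-/

set_option autoImplicit false

namespace Crest.Agent.R56

open Finset Crest.Agent.BF

variable {ι : Type*} [Fintype ι] [DecidableEq ι] {p : ℝ}

open Classical in
/-- indicator function -/
noncomputable def ind (A : Set (ι → Bool)) (x : ι → Bool) : ℝ := if x ∈ A then 1 else 0

omit [Fintype ι] [DecidableEq ι] in
lemma isBool_ind (A : Set (ι → Bool)) : IsBool (ind A) := fun x => by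
  unfold ind; split_ifs <;> simp

omit [Fintype ι] [DecidableEq ι] in
lemma ind_congr {A : Set (ι → Bool)} {x y : ι → Bool} (h : x ∈ A ↔ y ∈ A) : ind A x = ind A y := by
  unfold ind; by_cases a : x ∈ A
  · rw [if_pos a, if_pos (h.1 a)]
  · rw [if_neg a, if_neg (mt h.2 a)]

lemma bern_eq (p : ℝ) (A : Set (ι → Bool)) : Crest.FinProb.bernoulliProb p A = E p (ind A) := by
  unfold Crest.FinProb.bernoulliProb E ind
  rw [sum_filter]
  refine sum_congr rfl fun x _ => ?_
  split_ifs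
  · rw [mul_one]; rfl
  · rw [mul_zero]

lemma var_ind (A : Set (ι → Bool)) : var p (ind A) = E p (ind A) * (1 - E p (ind A)) := by
  have : (fun x => ind A x ^ 2) = ind A := by
    funext x; rcases isBool_ind A x with e | e <;> simp [e]
  rw [var, this]; ring

lemma russo (f : (ι → Bool) → ℝ) (p : ℝ) :
    HasDerivAt (fun q => E q f) (∑ i, E p (dif i f)) p := by
  have h1 : ∀ b : Bool, HasDerivAt (fun q => w1 q b) (if b then 1 else -1) p := by
    intro b
    cases b
    · exact (hasDerivAt_id' p).const_sub 1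
    · exact hasDerivAt_id' p
  have h2 : ∀ x : ι → Bool, HasDerivAt (fun q => wt q x * f x)
      ((∑ i, (∏ j ∈ univ.erase i, w1 p (x j)) • (if x i then (1 : ℝ) else -1)) * f x) p :=
    fun x => (HasDerivAt.fun_finsetProd (f := fun i q => w1 q (x i)) fun i _ => h1 (x i)).mul_const _
  have h3 := HasDerivAt.fun_sum fun x (_ : x ∈ (univ : Finset (ι → Bool))) => h2 x
  refine HasDerivAt.congr_deriv h3 (Eq.symm ?_)
  simp only [sum_mul, smul_eq_mul]
  rw [sum_comm]
  refine sum_congr rfl fun i _ => ?_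
  have := sum_erase_eq (p := p) i fun x => (if x i then (1 : ℝ) else -1) * f x
  simp only [mul_assoc]
  rw [this]
  congr 1; funext x
  simp [dif, sub_eq_add_neg]

lemma tot_of_mono {f : (ι → Bool) → ℝ} (hf : IsBool f)
    (hm : ∀ i x, f (Function.update x i false) ≤ f (Function.update x i true)) :
    tot p f = ∑ i, E p (dif i f) := by
  refine sum_congr rfl fun i _ => ?_
  rw [piv]
  congr 1; funext x
  have := hm i x
  rcases hf.dif i x with e | e | e
  · simp [e]
  · simp [e]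
  · unfold dif at e; linarith

/-- integrating the differential inequality `μ' ≥ K μ (1 - μ)` -/
lemma threshold {μ D : ℝ → ℝ} (hd : ∀ t, HasDerivAt μ (D t) t) {K ε p q : ℝ}
    (hD0 : ∀ t, 0 < t → t < 1 → 0 ≤ D t)
    (hD : ∀ t, 0 < t → t < 1 → K * (μ t * (1 - μ t)) ≤ D t) (hε0 : 0 < ε) (hε : ε < 1 / 2)
    (hp0 : 0 ≤ p) (hpq : p ≤ q) (hq1 : q ≤ 1) (hp : ε ≤ μ p)
    (hq : 4 * Real.log (1 / (2 * ε)) ≤ K * (q - p)) : 1 - ε ≤ μ q := by
  have hc : Continuous μ := continuous_iff_continuousAt.2 fun t => (hd t).continuousAt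
  have hint : ∀ t ∈ interior (Set.Icc p q), 0 < t ∧ t < 1 := fun t ht => by
    rw [interior_Icc] at ht
    exact ⟨by linarith [ht.1], by linarith [ht.2]⟩
  have mono : MonotoneOn μ (Set.Icc p q) :=
    monotoneOn_of_hasDerivWithinAt_nonneg (convex_Icc p q) hc.continuousOn
      (fun t _ => (hd t).hasDerivWithinAt) fun t ht => hD0 t (hint t ht).1 (hint t ht).2
  have pos : ∀ t ∈ Set.Icc p q, 0 < μ t := fun t ht =>
    lt_of_lt_of_le hε0 (hp.trans (mono ⟨le_rfl, hpq⟩ ht ht.1))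
  have hg : ∀ t ∈ Set.Icc p q, HasDerivAt (fun t => ((μ t)⁻¹ - 1) * Real.exp (K * t))
      (-D t / μ t ^ 2 * Real.exp (K * t) + ((μ t)⁻¹ - 1) * (Real.exp (K * t) * K)) t := by
    intro t ht
    have a := ((hd t).fun_inv (pos t ht).ne').sub_const 1
    have b := ((hasDerivAt_id' t).const_mul K).exp
    rw [mul_one] at b
    exact a.fun_mul b
  have anti : AntitoneOn (fun t => ((μ t)⁻¹ - 1) * Real.exp (K * t)) (Set.Icc p q) := by
    refine antitoneOn_of_hasDerivWithinAt_nonpos (convex_Icc p q)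
      (fun t ht => (hg t ht).continuousAt.continuousWithinAt)
      (fun t ht => (hg t (interior_subset ht)).hasDerivWithinAt) fun t ht => ?_
    have a := pos t (interior_subset ht)
    have b := hD t (hint t ht).1 (hint t ht).2
    have e : -D t / μ t ^ 2 * Real.exp (K * t) + ((μ t)⁻¹ - 1) * (Real.exp (K * t) * K) =
        Real.exp (K * t) / μ t ^ 2 * (K * (μ t * (1 - μ t)) - D t) := by
      field_simp; ring
    rw [e]
    exact mul_nonpos_of_nonneg_of_nonpos (by positivity) (by linarith)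
  have key := anti ⟨le_rfl, hpq⟩ ⟨hpq, le_rfl⟩ hpq
  simp only at key
  by_contra hcon
  push Not at hcon
  have pq := pos q ⟨hpq, le_rfl⟩
  have a1 : (1 - ε)⁻¹ - 1 < (μ q)⁻¹ - 1 := by
    have := inv_strictAnti₀ pq hcon
    linarith
  have a2 : (μ p)⁻¹ - 1 ≤ ε⁻¹ - 1 := by
    have := inv_anti₀ hε0 hp
    linarith
  have a3 : (1 / (2 * ε)) ^ 4 * Real.exp (K * p) ≤ Real.exp (K * q) := by
    rw [← Real.exp_log (x := 1 / (2 * ε)) (by positivity), ← Real.exp_nat_mul, ← Real.exp_add]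
    refine Real.exp_le_exp.2 ?_
    push_cast
    linarith
  have e1 : 0 < 1 - ε := by linarith
  have a4 : 0 ≤ (1 - ε)⁻¹ - 1 := by
    rw [sub_nonneg, one_le_inv₀ e1]; linarith
  have a5 : ((1 - ε)⁻¹ - 1) * ((1 / (2 * ε)) ^ 4 * Real.exp (K * p)) <
      (ε⁻¹ - 1) * Real.exp (K * p) :=
    calc _ ≤ ((1 - ε)⁻¹ - 1) * Real.exp (K * q) := mul_le_mul_of_nonneg_left a3 a4
      _ < ((μ q)⁻¹ - 1) * Real.exp (K * q) := mul_lt_mul_of_pos_right a1 (Real.exp_pos _)
      _ ≤ _ := key.trans (mul_le_mul_of_nonneg_right a2 (Real.exp_pos _).le)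
  rw [← mul_assoc, mul_lt_mul_iff_left₀ (Real.exp_pos _)] at a5
  have a6 : ((1 - ε)⁻¹ - 1) * (1 / (2 * ε)) ^ 4 = 1 / (16 * ε ^ 3 * (1 - ε)) := by
    field_simp; ring
  have a7 : ε⁻¹ - 1 = (1 - ε) / ε := by field_simp
  rw [a6, a7, div_lt_div_iff₀ (by positivity) hε0] at a5
  have a8 : 4 * (ε * (1 - ε)) ≤ 1 := by nlinarith [sq_nonneg (ε - 1 / 2)]
  have a9 : (4 * (ε * (1 - ε))) ^ 2 ≤ 1 := pow_le_one₀ (by positivity) a8
  nlinarith

end Crest.Agent.R56
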