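import Crest.Agent.R56.Restrict

/-!
Row 56: combinatorial lemmas (sets of edges spanning many vertices, random restrictions, symmetry).
-/

set_option autoImplicit false

namespace Crest.Agent.R56

open Finset Crest.Agent.BF

variable {ι : Type*} [Fintype ι] [DecidableEq ι] {p : ℝ} {n r : ℕ}

/-- the `t`-subsets of `S` spanning at least `t` vertices -/
def wide (vs : ι → Finset (Fin n)) (S : Finset ι) (t : ℕ) : Finset (Finset ι) :=
  (powersetCard t S).filter fun T => t ≤ (T.biUnion vs).card

omit [Fintype ι] in
lemma card_span_le {vs : ι → Finset (Fin n)} (hr : ∀ i, (vs i).card = r) (T : Finset ι) :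
    (T.biUnion vs).card ≤ r * T.card := by
  rw [mul_comm]
  exact card_biUnion_le_card_mul _ _ _ fun i _ => (hr i).le

omit [Fintype ι] in
lemma wide_count {vs : ι → Finset (Fin n)} (hr : ∀ i, (vs i).card = r)
    (hinj : Function.Injective vs) (S : Finset ι) (t : ℕ)
    (h : ∀ j < t, 2 * (r * j) ^ r ≤ S.card) :
    S.card ^ t ≤ 2 ^ t * t.factorial * (wide vs S t).card := by
  induction t with
  | zero => simp [wide]
  | succ t ih =>
    have ih' := ih fun j hj => h j (by omega)
    have ht := h t (by omega)
    have key : (wide vs S t).card * ((S.card + 1) / 2) ≤ (wide vs S (t + 1)).card * (t + 1) := by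
      refine card_mul_le_card_mul (fun T T' => T ⊆ T') (fun T hT => ?_) (fun T' hT' => ?_)
      · obtain ⟨hT1, hT2⟩ := mem_filter.1 hT
        obtain ⟨hTS, hTc⟩ := mem_powersetCard.1 hT1
        have c1 : (S.filter fun e => vs e ⊆ T.biUnion vs).card ≤ (r * t) ^ r := by
          calc _ ≤ (powersetCard r (T.biUnion vs)).card :=
                card_le_card_of_injOn vs
                  (fun e he => mem_coe.2 (mem_powersetCard.2 ⟨(mem_filter.1 he).2, hr e⟩))
                  hinj.injOn
            _ = (T.biUnion vs).card.choose r := card_powersetCard _ _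
            _ ≤ (T.biUnion vs).card ^ r := Nat.choose_le_pow _ _
            _ ≤ (r * t) ^ r := Nat.pow_le_pow_left (hTc ▸ card_span_le hr T) _
        have c2 := card_filter_add_card_filter_not (s := S) fun e => vs e ⊆ T.biUnion vs
        have c3 : (S.filter fun e => ¬vs e ⊆ T.biUnion vs).card ≤
            ((wide vs S (t + 1)).bipartiteAbove (fun T T' => T ⊆ T') T).card := by
          have hn : ∀ e ∈ S.filter (fun e => ¬vs e ⊆ T.biUnion vs), e ∉ T := fun e he heT =>
            (mem_filter.1 he).2 (subset_biUnion_of_mem vs heT)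
          refine card_le_card_of_injOn (fun e => insert e T) (fun e he => ?_) ?_
          · have he' := mem_filter.1 (mem_coe.1 he)
            simp only [coe_filter, bipartiteAbove, wide, mem_filter, mem_powersetCard,
              Set.mem_ofPred_eq]
            refine ⟨⟨⟨insert_subset he'.1 hTS, by rw [card_insert_of_notMem (hn e he), hTc]⟩, ?_⟩,
              subset_insert _ _⟩
            refine lt_of_le_of_lt hT2 (card_lt_card ?_)
            rw [biUnion_insert]
            exact ⟨subset_union_right, fun hs => he'.2 (subset_union_left.trans hs)⟩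
          · intro e he e' he' hee
            have : e ∈ insert e' T := by
              have : insert e T = insert e' T := hee
              rw [← this]; exact mem_insert_self _ _
            rcases mem_insert.1 this with a | a
            · exact a
            · exact absurd a (hn e he)
        omega
      · obtain ⟨hT1, -⟩ := mem_filter.1 hT'
        obtain ⟨-, hTc⟩ := mem_powersetCard.1 hT1
        calc _ ≤ (powersetCard t T').card := card_le_card fun T hT => by
              simp only [bipartiteBelow, wide, mem_filter, mem_powersetCard] at hT ⊢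
              exact ⟨hT.2, hT.1.1.2⟩
          _ = t + 1 := by rw [card_powersetCard, hTc, Nat.choose_succ_self_right]
    calc S.card ^ (t + 1) = S.card ^ t * S.card := pow_succ _ _
      _ ≤ (2 ^ t * t.factorial * (wide vs S t).card) * (2 * ((S.card + 1) / 2)) :=
          Nat.mul_le_mul ih' (by omega)
      _ = 2 ^ (t + 1) * t.factorial * ((wide vs S t).card * ((S.card + 1) / 2)) := by ring
      _ ≤ 2 ^ (t + 1) * t.factorial * ((wide vs S (t + 1)).card * (t + 1)) :=
          Nat.mul_le_mul_left _ key
      _ = _ := by rw [Nat.factorial_succ]; ring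

/-- the set selected by the coins `y` -/
def sel (y : ι → Bool) : Finset ι := univ.filter fun i => y i = true

lemma prob_inter {θ : ℝ} (h0 : 0 ≤ θ) (h1 : θ ≤ 1) {S T : Finset ι} (hT : T ⊆ S) :
    θ ^ T.card * (1 - θ) ^ S.card ≤ E θ fun y => if S ∩ sel y = T then 1 else 0 := by
  let h : ι → Bool → ℝ := fun i b =>
    if i ∈ T then (if b then 1 else 0) else if i ∈ S then (if b then 0 else 1) else 1
  have e : ∀ y : ι → Bool, ∏ i, h i (y i) ≤ if S ∩ sel y = T then 1 else 0 := by
    intro y
    split_ifs with hy
    · exact prod_le_one (fun i _ => by simp only [h]; split_ifs <;> norm_num)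
        fun i _ => by simp only [h]; split_ifs <;> norm_num
    · obtain ⟨i, hi⟩ : ∃ i, ¬(i ∈ S ∩ sel y ↔ i ∈ T) := by
        by_contra hc; push Not at hc; exact hy (Finset.ext hc)
      refine le_of_eq (prod_eq_zero (mem_univ i) ?_)
      simp only [sel, mem_inter, mem_filter, mem_univ, true_and] at hi
      by_cases a : i ∈ T
      · have b := hT a
        simp only [a, b, true_and, iff_true] at hi
        simp [h, a, hi]
      · simp only [a, iff_false, not_not] at hi
        simp [h, a, hi.1, hi.2]
  refine le_trans ?_ (E_mono h0 h1 e)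
  rw [E_prod h]
  have e1 : θ ^ T.card = ∏ i, if i ∈ T then θ else 1 := by
    rw [prod_ite_mem, univ_inter, prod_const]
  have e2 : (1 - θ) ^ S.card = ∏ i, if i ∈ S then 1 - θ else 1 := by
    rw [prod_ite_mem, univ_inter, prod_const]
  rw [e1, e2, ← prod_mul_distrib]
  refine prod_le_prod (fun i _ => ?_) fun i _ => ?_
  · have : 0 ≤ 1 - θ := by linarith
    split_ifs <;> positivity
  · by_cases a : i ∈ T
    · simp only [h, a, hT a, if_true, Bool.false_eq_true, if_false]
      nlinarith
    · by_cases b : i ∈ S <;> simp [h, a, b]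

lemma prob_wide {θ : ℝ} (h0 : 0 ≤ θ) (h1 : θ ≤ 1) (vs : ι → Finset (Fin n)) (S : Finset ι)
    (t : ℕ) : (wide vs S t).card * (θ ^ t * (1 - θ) ^ S.card) ≤
      E θ fun y => if S ∩ sel y ∈ wide vs S t then 1 else 0 := by
  have e : ∀ y : ι → Bool, (if S ∩ sel y ∈ wide vs S t then (1 : ℝ) else 0) =
      ∑ T ∈ wide vs S t, if S ∩ sel y = T then 1 else 0 := fun y => by simp
  simp only [e, E_sum]
  rw [← nsmul_eq_mul, ← sum_const]
  refine sum_le_sum fun T hT => ?_
  obtain ⟨hTS, hTc⟩ := mem_powersetCard.1 (mem_filter.1 hT).1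
  rw [← hTc]
  exact prob_inter h0 h1 hTS

lemma hat_map (f : (ι → Bool) → ℝ) (e : ι ≃ ι) (hf : ∀ x, f (fun i => x (e i)) = f x)
    (S : Finset ι) : hat p f (S.map e.toEmbedding) = hat p f S := by
  simp only [hat, E]
  rw [← (Equiv.arrowCongr e.symm (Equiv.refl Bool)).sum_comp
    (fun x => wt p x * (f x * chi p S x))]
  refine sum_congr rfl fun x _ => ?_
  have : (Equiv.arrowCongr e.symm (Equiv.refl Bool)) x = fun i => x (e i) := by
    funext i; simp
  rw [this, hf, wt, wt, chi, chi, prod_map, e.prod_comp fun i => w1 p (x i)]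
  rfl

/-- invariance of `f` under all permutations of the vertices -/
def Symm (vs : ι → Finset (Fin n)) (f : (ι → Bool) → ℝ) : Prop :=
  ∀ π : Equiv.Perm (Fin n), ∃ e : ι ≃ ι, (∀ i, vs (e i) = (vs i).map π.toEmbedding) ∧
    ∀ x, f (fun i => x (e i)) = f x

lemma symm_bound (h0 : 0 < p) (h1 : p < 1) {vs : ι → Finset (Fin n)}
    (hr : ∀ i, (vs i).card = r) {f : (ι → Bool) → ℝ} (hf : IsBool f) (hs : Symm vs f) (d : ℕ)
    (U : Finset (Fin n)) (hU : 2 * U.card ≤ n) (hn : 0 < n) :
    ∑ S ∈ univ.filter (fun S : Finset ι => U ⊆ S.biUnion vs ∧ S.card ≤ d), hat p f S ^ 2 ≤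
      (2 * r * d / n) ^ U.card := by
  set W : Finset (Fin n) → ℝ := fun U =>
    ∑ S ∈ univ.filter (fun S : Finset ι => U ⊆ S.biUnion vs ∧ S.card ≤ d), hat p f S ^ 2 with hW
  have inv : ∀ U' ∈ powersetCard U.card (univ : Finset (Fin n)), W U' = W U := by
    intro U' hU'
    obtain ⟨π, rfl⟩ := Equiv.Perm.exists_map_finset_eq U U' (mem_powersetCard.1 hU').2.symm
    obtain ⟨e, he, hfe⟩ := hs π
    symm
    refine sum_equiv e.finsetCongr (fun S => ?_) fun S _ => ?_
    · have : (S.map e.toEmbedding).biUnion vs = (S.biUnion vs).map π.toEmbedding := by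
        ext v
        simp only [mem_biUnion, mem_map, Equiv.coe_toEmbedding]
        constructor
        · rintro ⟨_, ⟨i, hi, rfl⟩, hv⟩
          rw [he, mem_map] at hv
          obtain ⟨w, hw, rfl⟩ := hv
          exact ⟨w, ⟨i, hi, hw⟩, rfl⟩
        · rintro ⟨w, ⟨i, hi, hw⟩, rfl⟩
          exact ⟨e i, ⟨i, hi, rfl⟩, by rw [he]; exact mem_map_of_mem _ hw⟩
      simp only [mem_filter, mem_univ, true_and, Equiv.finsetCongr_apply, this, map_subset_map,
        card_map]
    · rw [Equiv.finsetCongr_apply, hat_map f e hfe]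
  have tot1 : ∑ S : Finset ι, hat p f S ^ 2 ≤ 1 := by
    rw [← parseval h0 h1]
    exact (E_mono h0.le h1.le fun x => by rcases hf x with e | e <;> simp [e]).trans
      (E_const 1).le
  have sumle : (n.choose U.card : ℝ) * W U ≤ (r * d).choose U.card := by
    calc (n.choose U.card : ℝ) * W U
        = ∑ U' ∈ powersetCard U.card (univ : Finset (Fin n)), W U' := by
          rw [sum_congr rfl inv, sum_const, card_powersetCard, card_univ, Fintype.card_fin,
            nsmul_eq_mul]
      _ = ∑ S : Finset ι, ∑ U' ∈ powersetCard U.card (univ : Finset (Fin n)),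
            if U' ⊆ S.biUnion vs ∧ S.card ≤ d then hat p f S ^ 2 else 0 := by
          simp only [hW, sum_filter]; rw [sum_comm]
      _ ≤ ∑ S : Finset ι, ((r * d).choose U.card : ℝ) * hat p f S ^ 2 := by
          refine sum_le_sum fun S _ => ?_
          rw [← sum_filter, sum_const, nsmul_eq_mul]
          refine mul_le_mul_of_nonneg_right ?_ (sq_nonneg _)
          by_cases hS : S.card ≤ d
          · have : (filter (fun U' => U' ⊆ S.biUnion vs ∧ S.card ≤ d)
                (powersetCard U.card (univ : Finset (Fin n)))).card ≤ (r * d).choose U.card := by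
              calc _ ≤ (powersetCard U.card (S.biUnion vs)).card := card_le_card fun U' hU' => by
                    simp only [mem_filter, mem_powersetCard] at hU' ⊢
                    exact ⟨hU'.2.1, hU'.1.2⟩
                _ = _ := card_powersetCard _ _
                _ ≤ _ := Nat.choose_le_choose _
                    ((card_span_le hr S).trans (Nat.mul_le_mul_left _ hS))
            exact_mod_cast this
          · simp [hS]
      _ ≤ _ := by
          rw [← mul_sum]
          exact mul_le_of_le_one_right (Nat.cast_nonneg _) tot1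
  have W0 : 0 ≤ W U := sum_nonneg fun _ _ => sq_nonneg _
  have l1 := Nat.pow_le_choose (α := ℝ) U.card n
  have l2 := Nat.choose_le_pow_div (α := ℝ) U.card (r * d)
  have hfac : (0 : ℝ) < U.card.factorial := by positivity
  have hn' : (0 : ℝ) < n := by exact_mod_cast hn
  have l3 : (n : ℝ) / 2 ≤ ((n + 1 - U.card : ℕ) : ℝ) := by
    have : n ≤ 2 * (n + 1 - U.card) := by omega
    have : (n : ℝ) ≤ 2 * ((n + 1 - U.card : ℕ) : ℝ) := by exact_mod_cast this
    linarith
  have l4 : ((n : ℝ) / 2) ^ U.card * W U ≤ ((r * d : ℕ) : ℝ) ^ U.card := by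
    have a1 : ((n : ℝ) / 2) ^ U.card / U.card.factorial ≤ n.choose U.card :=
      le_trans (by gcongr) l1
    have a2 := (mul_le_mul_of_nonneg_right a1 W0).trans (sumle.trans l2)
    rwa [div_mul_eq_mul_div, div_le_div_iff_of_pos_right hfac] at a2
  show W U ≤ _
  rw [mul_comm, ← le_div_iff₀ (by positivity), ← div_pow] at l4
  refine l4.trans (le_of_eq ?_)
  congr 1
  push_cast
  field_simp

end Crest.Agent.R56
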