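import Crest.Agent.R56.Low

/-!
Row 56: the variance-influence inequality for symmetric Boolean functions.
-/

set_option autoImplicit false

namespace Crest.Agent.R56

open Finset Crest.Agent.BF

variable {ι : Type*} [Fintype ι] [DecidableEq ι] {p : ℝ} {n r : ℕ}

lemma log_le_of_le_sq {x y : ℝ} (hx : 0 < x) (hy : 0 < y) (h : x ≤ y ^ 2) : Real.log x ≤ y := by
  have a1 : Real.log x ≤ Real.log (y ^ 2) := Real.log_le_log hx h
  have a2 : Real.log (y / 2) ≤ y / 2 - 1 := Real.log_le_sub_one_of_pos (by positivity)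
  rw [Real.log_div hy.ne' two_ne_zero] at a2
  rw [Real.log_pow] at a1
  have := Real.log_two_lt_d9
  push_cast at a1
  linarith

lemma le_exp_of_le_sq {x y : ℝ} (hx : 0 < x) (hy : 0 < y) (h : x ≤ y ^ 2) : x ≤ Real.exp y := by
  rw [← Real.log_le_iff_le_exp hx]; exact log_le_of_le_sq hx hy h

lemma numeric {L K b : ℝ} {r l d0 m : ℕ} (hL : 724 ≤ L) (hK0 : 0 < K) (hK : K ≤ L ^ 2 / 2 ^ 17)
    (hr : (r : ℝ) ≤ L) (hl0 : 0 < l) (hl : (l : ℝ) ≤ L) (hd : (d0 : ℝ) ≤ K)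
    (hlb : l * b ≤ L / 8 + L / 362) (hmb : m * b ≤ L / 8192 + L / 362) (hb : 1 ≤ b) :
    ((Real.exp (-b))⁻¹) ^ (2 * l) * (2 * r * d0 / Real.exp L) ≤
      1 / 4 * (Real.exp (-4 * m) / l / 8) ^ 3 *
        ((Real.exp (-4 * m) / l / (24 * K)) ^ 5 * Real.exp (-b) ^ (2 * m)) := by
  have hl' : (0 : ℝ) < l := by exact_mod_cast hl0
  have eK : K ≤ Real.exp (L / 362) :=
    le_exp_of_le_sq hK0 (by linarith) (hK.trans (by rw [div_pow]; gcongr; norm_num))
  have eL : L ≤ Real.exp (L / 26) := le_exp_of_le_sq (by linarith) (by linarith) (by nlinarith)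
  have eC : (8 * 512 * 24 ^ 5 : ℝ) ≤ Real.exp (L / 28) := by
    have a : (2.7 : ℝ) ≤ Real.exp 1 := by linarith [Real.exp_one_gt_d9]
    calc (8 * 512 * 24 ^ 5 : ℝ) ≤ 2.7 ^ 25 := by norm_num
      _ ≤ Real.exp 1 ^ 25 := by gcongr
      _ = Real.exp 25 := by rw [← Real.exp_nat_mul]; norm_num
      _ ≤ _ := Real.exp_le_exp.2 (by linarith)
  have hm0 : (0 : ℝ) ≤ m := Nat.cast_nonneg m
  have hm : (m : ℝ) ≤ m * b := le_mul_of_one_le_right hm0 hb
  have main : (8 * 512 * 24 ^ 5 : ℝ) * r * d0 * K ^ 5 * l ^ 8 *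
      Real.exp (2 * (l * b) + 2 * (m * b) + 32 * m) ≤ Real.exp L := by
    calc _ ≤ Real.exp (L / 28) * Real.exp (L / 26) * Real.exp (L / 362) * Real.exp (L / 362) ^ 5 *
          Real.exp (L / 26) ^ 8 * Real.exp (2 * (l * b) + 2 * (m * b) + 32 * m) := by
          gcongr
          · exact hr.trans eL
          · exact hd.trans eK
          · exact hl.trans eL
      _ ≤ _ := by
          simp only [← Real.exp_nat_mul, ← Real.exp_add]
          refine Real.exp_le_exp.2 ?_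
          push_cast
          linarith
  have e1 : ((Real.exp (-b))⁻¹) ^ (2 * l) = Real.exp (2 * (l * b)) := by
    rw [← Real.exp_neg, neg_neg, ← Real.exp_nat_mul]; congr 1; push_cast; ring
  have e2 : Real.exp (-b) ^ (2 * m) = (Real.exp (2 * (m * b)))⁻¹ := by
    rw [← Real.exp_nat_mul, ← Real.exp_neg]; congr 1; push_cast; ring
  have e3 : Real.exp (-4 * m) = (Real.exp (4 * m))⁻¹ := by rw [← Real.exp_neg]; congr 1; ring
  have e4 : Real.exp (32 * m) = Real.exp (4 * m) ^ 8 := by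
    rw [← Real.exp_nat_mul]; congr 1; push_cast; ring
  rw [Real.exp_add, Real.exp_add, e4] at main
  rw [e1, e2, e3]
  have p1 := Real.exp_pos (2 * (l * b))
  have p2 := Real.exp_pos (2 * (m * b))
  have p3 := Real.exp_pos (4 * m)
  have p4 := Real.exp_pos L
  generalize Real.exp (2 * (l * b)) = A at *
  generalize Real.exp (2 * (m * b)) = B at *
  generalize Real.exp (4 * m) = C at *
  generalize Real.exp L = N at *
  have : 1 / 4 * (C⁻¹ / l / 8) ^ 3 * ((C⁻¹ / l / (24 * K)) ^ 5 * B⁻¹) =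
      1 / (4 * 512 * 24 ^ 5 * K ^ 5 * l ^ 8 * B * C ^ 8) := by
    field_simp; ring
  rw [this, ← mul_div_assoc, div_le_div_iff₀ p4 (by positivity)]
  nlinarith

lemma params_b {s K L : ℝ} (hs0 : 0 < s) (hs4 : s ≤ 1 / 4) (hc : 1 < s * K)
    (hK1 : K ≤ L ^ 2 / 2 ^ 17) (L0 : 0 ≤ L) :
    4 < K ∧ 724 ≤ L ∧ 1 ≤ -Real.log s ∧ -Real.log s ≤ L / 362 ∧ s * (-Real.log s) ^ 2 ≤ 1 := by
  have K0 : 0 < K := by
    by_contra h
    push Not at h
    nlinarith
  have K4 : 4 < K := by nlinarith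
  have L1 : 724 ≤ L := by
    by_contra h
    push Not at h
    have a : L ^ 2 < 724 ^ 2 := by gcongr
    have b := div_lt_div_of_pos_right a (by norm_num : (0 : ℝ) < 2 ^ 17)
    have : (4 : ℝ) < 724 ^ 2 / 2 ^ 17 := by linarith
    norm_num at this
  have b1 : 1 ≤ -Real.log s := by
    have : Real.log s ≤ Real.log (1 / 4) := Real.log_le_log hs0 hs4
    rw [one_div, Real.log_inv, show (4 : ℝ) = 2 ^ 2 by norm_num, Real.log_pow] at this
    have := Real.log_two_gt_d9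
    push_cast at *
    linarith
  refine ⟨K4, L1, b1, ?_, ?_⟩
  · rw [← Real.log_inv]
    refine log_le_of_le_sq (by positivity) (by linarith) ?_
    have : s⁻¹ ≤ K := by rw [inv_le_iff_one_le_mul₀' hs0]; exact hc.le
    exact this.trans (hK1.trans (by rw [div_pow]; gcongr; norm_num))
  · have a1 : -Real.log s ≤ Real.sqrt s⁻¹ := by
      rw [← Real.log_inv]
      exact log_le_of_le_sq (by positivity) (by positivity)
        (Real.sq_sqrt (by positivity)).symm.le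
    have a2 : (-Real.log s) ^ 2 ≤ s⁻¹ := by
      rw [← Real.sq_sqrt (by positivity : 0 ≤ s⁻¹)]; gcongr
    calc s * (-Real.log s) ^ 2 ≤ s * s⁻¹ := by gcongr
      _ = 1 := mul_inv_cancel₀ hs0.ne'

lemma params_m {s K L b : ℝ} {l d0 m : ℕ} (hK0 : 0 ≤ K) (hK1 : K ≤ L ^ 2 / 2 ^ 17) (L0 : 0 ≤ L)
    (b1 : 1 ≤ b) (b3 : s * b ^ 2 ≤ 1) (l3 : L ≤ 8 * b * l) (l0 : 0 < l)
    (d1 : (d0 : ℝ) ≤ 2 * s * K) (hm : l * m ≤ d0 + l) : (m : ℝ) * b ≤ L / 8192 + b := by
  have a1 : (l : ℝ) * m ≤ d0 + l := by exact_mod_cast hm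
  have lpos : (0 : ℝ) < l := by exact_mod_cast l0
  have a2 : (d0 : ℝ) * b ≤ L / 8192 * l := by
    have c1 : (d0 : ℝ) * b * (8 * b) ≤ 16 * K := by
      calc (d0 : ℝ) * b * (8 * b) ≤ 2 * s * K * b * (8 * b) := by gcongr
        _ = 16 * K * (s * b ^ 2) := by ring
        _ ≤ 16 * K * 1 := by gcongr
        _ = _ := mul_one _
    have c2 : 16 * K ≤ L / 8192 * L := by linarith
    have c3 : L / 8192 * L ≤ L / 8192 * l * (8 * b) := by
      rw [mul_assoc, mul_comm (l : ℝ)]; gcongr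
    exact le_of_mul_le_mul_right (c1.trans (c2.trans c3)) (by positivity)
  have a3 : (l : ℝ) * (m * b) ≤ l * (L / 8192 + b) := by
    calc (l : ℝ) * (m * b) = l * m * b := by ring
      _ ≤ (d0 + l) * b := by gcongr
      _ ≤ _ := by linarith
  exact le_of_mul_le_mul_left a3 lpos

lemma params_C {s K L b : ℝ} {l d0 k : ℕ} (hs0 : 0 < s) (hK0 : 0 ≤ K) (L0 : 0 ≤ L)
    (b1 : 1 ≤ b) (b3 : s * b ^ 2 ≤ 1) (l3 : L ≤ 8 * b * l) (d1 : (d0 : ℝ) ≤ 2 * s * K)
    (hK2 : (16 * ((k + 2 : ℕ) : ℝ)) ^ (k + 2) * K ^ (k + 1) ≤ L ^ (k + 2)) :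
    2 * (k + 2) ^ (k + 2) * d0 ^ (k + 1) ≤ l ^ (k + 2) := by
  have b4 : s * b ≤ 1 := by nlinarith
  have a1 : (2 : ℝ) * ((k + 2 : ℕ) : ℝ) ^ (k + 2) * d0 ^ (k + 1) * (8 * b) ^ (k + 2) ≤
      (l : ℝ) ^ (k + 2) * (8 * b) ^ (k + 2) := by
    calc _ ≤ (2 : ℝ) * ((k + 2 : ℕ) : ℝ) ^ (k + 2) * (2 * s * K) ^ (k + 1) * (8 * b) ^ (k + 2) := by
          gcongr
      _ = (16 * ((k + 2 : ℕ) : ℝ)) ^ (k + 2) * K ^ (k + 1) * ((s * b ^ 2) * (s * b) ^ k) := by
          rw [show (16 : ℝ) = 2 * 8 by norm_num]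
          simp only [mul_pow]; ring
      _ ≤ L ^ (k + 2) * 1 := by
          refine mul_le_mul hK2 ?_ (by positivity) (by positivity)
          exact mul_le_one₀ b3 (by positivity) (pow_le_one₀ (by positivity) b4)
      _ ≤ _ := by rw [mul_one, ← mul_pow, mul_comm]; gcongr
  have a2 := le_of_mul_le_mul_right a1 (by positivity)
  exact_mod_cast a2

lemma params {s K : ℝ} (hs0 : 0 < s) (hs4 : s ≤ 1 / 4) (hc : 1 < s * K) (hr2 : 2 ≤ r)
    (hK1 : K ≤ Real.log n ^ 2 / 2 ^ 17) (hK2 : (16 * r) ^ r * K ^ (r - 1) ≤ Real.log n ^ r) :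
    ∃ l d0 : ℕ, 2 ≤ l ∧ 2 * r ^ r * d0 ^ (r - 1) ≤ l ^ r ∧ 2 * tt l d0 ≤ n ∧ 0 < n ∧
      2 * s * K < d0 + 1 ∧
      (s⁻¹) ^ (2 * l) * (2 * r * d0 / n) ≤ 1 / 4 * (Real.exp (-4 * tt l d0) / l / 8) ^ 3 *
        ((Real.exp (-4 * tt l d0) / l / (24 * K)) ^ 5 * s ^ (2 * tt l d0)) := by
  have L0 : 0 ≤ Real.log n := Real.log_natCast_nonneg n
  obtain ⟨K4, L1, b1, b2, b3⟩ := params_b hs0 hs4 hc hK1 L0
  have n0 : 0 < n := by
    rcases Nat.eq_zero_or_pos n with e | e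
    · rw [e] at L1; simp at L1; linarith
    · exact e
  have eN : Real.exp (Real.log n) = n := Real.exp_log (by exact_mod_cast n0)
  have es : Real.exp (- -Real.log s) = s := by rw [neg_neg, Real.exp_log hs0]
  generalize Real.log n = L at *
  generalize -Real.log s = b at *
  have l1 : L / (8 * b) ≤ ⌈L / (8 * b)⌉₊ := Nat.le_ceil _
  have l2 : (⌈L / (8 * b)⌉₊ : ℝ) < L / (8 * b) + 1 := Nat.ceil_lt_add_one (by positivity)
  generalize ⌈L / (8 * b)⌉₊ = l at *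
  have l3 : L ≤ 8 * b * l := by rwa [div_le_iff₀' (by positivity)] at l1
  have l4 : l * b ≤ L / 8 + b := by
    have := mul_le_mul_of_nonneg_right l2.le (by linarith : 0 ≤ b)
    rwa [add_mul, one_mul, show L / (8 * b) * b = L / 8 by field_simp] at this
  have l5 : 2 ≤ l := by
    have : (1 : ℝ) < l := by
      by_contra h
      push Not at h
      have : 8 * b * l ≤ 8 * b * 1 := by gcongr
      linarith
    exact_mod_cast this
  have l6 : (l : ℝ) ≤ L := by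
    have : (l : ℝ) ≤ l * b := le_mul_of_one_le_right (Nat.cast_nonneg _) b1
    linarith
  have d1 : (⌊2 * s * K⌋₊ : ℝ) ≤ 2 * s * K := Nat.floor_le (by positivity)
  have d2 : 2 * s * K < ⌊2 * s * K⌋₊ + 1 := Nat.lt_floor_add_one _
  generalize ⌊2 * s * K⌋₊ = d0 at *
  have m1 := params_m (by linarith) hK1 L0 b1 b3 l3 (by omega) d1 (tt_spec (by omega) d0).2.le
  obtain ⟨k, rfl⟩ : ∃ k, r = k + 2 := ⟨r - 2, by omega⟩
  have ek : k + 2 - 1 = k + 1 := by omega
  rw [ek] at hK2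
  have r1 : ((k + 2 : ℕ) : ℝ) ≤ L := by
    have a1 : (16 * ((k + 2 : ℕ) : ℝ)) ^ (k + 2) ≤ L ^ (k + 2) :=
      le_trans (le_mul_of_one_le_right (by positivity) (one_le_pow₀ (by linarith))) hK2
    have := le_of_pow_le_pow_left₀ (by omega) L0 a1
    have : (0 : ℝ) ≤ ((k + 2 : ℕ) : ℝ) := Nat.cast_nonneg _
    linarith
  have hm : 2 * tt l d0 ≤ n := by
    have a1 : (tt l d0 : ℝ) ≤ tt l d0 * b := le_mul_of_one_le_right (Nat.cast_nonneg _) b1
    have a2 := Real.add_one_le_exp L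
    have : (2 : ℝ) * tt l d0 ≤ n := by linarith
    exact_mod_cast this
  have dK : (d0 : ℝ) ≤ K := by
    have : 2 * s * K ≤ 2 * (1 / 4) * K := by gcongr
    linarith
  have hX := numeric (m := tt l d0) L1 (by linarith) hK1 r1 (by omega : 0 < l) l6 dK
    (by linarith) (by linarith) b1
  rw [es, eN] at hX
  exact ⟨l, d0, l5, params_C hs0 (by linarith) L0 b1 b3 l3 d1 hK2, hm, n0, d2, hX⟩

lemma var_nonneg (h0 : 0 ≤ p) (h1 : p ≤ 1) (f : (ι → Bool) → ℝ) : 0 ≤ var p f :=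
  sub_nonneg.2 (sq_E_le h0 h1 f)

theorem core (h0 : 0 < p) (h1 : p < 1) {vs : ι → Finset (Fin n)}
    (hr : ∀ i, (vs i).card = r) (hr2 : 2 ≤ r) (hinj : Function.Injective vs)
    {f : (ι → Bool) → ℝ} (hf : IsBool f) (hs : Symm vs f) {K : ℝ} (hK0 : 0 < K)
    (hK1 : K ≤ Real.log n ^ 2 / 2 ^ 17) (hK2 : (16 * r) ^ r * K ^ (r - 1) ≤ Real.log n ^ r) :
    K * var p f ≤ tot p f := by
  have hs0 : 0 < p * (1 - p) := mul_pos h0 (by linarith)
  have hs4 : p * (1 - p) ≤ 1 / 4 := by nlinarith [sq_nonneg (p - 1 / 2)]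
  have V0 := var_nonneg h0.le h1.le f
  have T0 := tot_nonneg h0.le h1.le f
  have dir := dirichlet h0 h1 f
  -- weight above level `d`
  have high : ∀ d : ℕ, (d + 1 : ℝ) * (var p f -
      ∑ S ∈ univ.filter (fun S : Finset ι => S ≠ ∅ ∧ S.card ≤ d), hat p f S ^ 2) ≤
      p * (1 - p) * tot p f := by
    intro d
    refine le_trans ?_ dir
    rw [var_eq h0 h1, ← filter_ne' univ, sum_filter, sum_filter, ← sum_sub_distrib, mul_sum]
    refine sum_le_sum fun S _ => ?_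
    have n1 : 0 ≤ (S.card : ℝ) * hat p f S ^ 2 := by positivity
    by_cases a : S = ∅
    · simp [a]
    · by_cases b : S.card ≤ d
      · simpa [a, b] using n1
      · have : (d + 1 : ℝ) ≤ S.card := by exact_mod_cast not_le.1 b
        simp only [a, b, ne_eq, not_false_eq_true, if_true, and_false, if_false, sub_zero]
        exact mul_le_mul_of_nonneg_right this (sq_nonneg _)
  rcases le_or_gt (p * (1 - p) * K) 1 with hc | hc
  · have := high 0
    rw [filter_false_of_mem (fun S _ h => h.1 (card_eq_zero.1 (Nat.le_zero.1 h.2))),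
      sum_empty] at this
    push_cast at this
    nlinarith [mul_le_mul_of_nonneg_left this hK0.le, mul_le_mul_of_nonneg_right hc T0]
  by_contra hcon
  push Not at hcon
  have Vpos : 0 < var p f := by
    rcases V0.eq_or_lt with e | e
    · rw [← e] at hcon; linarith
    · exact e
  obtain ⟨l, d0, l5, hC, hm, n0, d2, hX⟩ := params hs0 hs4 hc hr2 hK1 hK2
  have low := low_weight h0 h1 hr (by omega) hinj hf hs l5 hC hm n0 hK0 rfl hX hcon.le
  have hi := high d0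
  have : (d0 + 1 : ℝ) * (var p f / 2) ≤ p * (1 - p) * tot p f :=
    le_trans (mul_le_mul_of_nonneg_left (by linarith) (by positivity)) hi
  linarith [mul_lt_mul_of_pos_left hcon hs0, mul_lt_mul_of_pos_right d2 Vpos]

end Crest.Agent.R56
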