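import Crest.Agent.Lib.BiasFourier

/-!
Row 56: level inequality, Dirichlet form, and Friedgut's junta estimate for small coefficients.
-/

set_option autoImplicit false

namespace Crest.Agent.R56

open Finset Crest.Agent.BF

variable {ι : Type*} [Fintype ι] [DecidableEq ι] {p : ℝ}

/-- pivotal probability -/
def piv (p : ℝ) (f : (ι → Bool) → ℝ) (i : ι) : ℝ := E p fun x => dif i f x ^ 2

/-- total influence -/
def tot (p : ℝ) (f : (ι → Bool) → ℝ) : ℝ := ∑ i, piv p f i

/-- `0`-`1` valued functions -/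
def IsBool (f : (ι → Bool) → ℝ) : Prop := ∀ x, f x = 0 ∨ f x = 1

lemma piv_nonneg (h0 : 0 ≤ p) (h1 : p ≤ 1) (f : (ι → Bool) → ℝ) (i : ι) : 0 ≤ piv p f i :=
  E_nonneg h0 h1 fun _ => sq_nonneg _

lemma tot_nonneg (h0 : 0 ≤ p) (h1 : p ≤ 1) (f : (ι → Bool) → ℝ) : 0 ≤ tot p f :=
  sum_nonneg fun i _ => piv_nonneg h0 h1 f i

lemma abs_le_add_pow_four {κ : ℝ} (hκ : 0 < κ) (t : ℝ) : |t| ≤ κ + t ^ 4 / κ ^ 3 := by
  have h4 : t ^ 4 = |t| ^ 4 := by rw [← abs_pow]; exact (abs_of_nonneg (by positivity)).symm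
  rcases le_total |t| κ with h | h
  · have : 0 ≤ t ^ 4 / κ ^ 3 := by positivity
    linarith
  · have : |t| ≤ t ^ 4 / κ ^ 3 := by
      rw [h4, le_div_iff₀ (by positivity)]
      calc |t| * κ ^ 3 ≤ |t| * |t| ^ 3 := by gcongr
        _ = |t| ^ 4 := by ring
    linarith

lemma level (h0 : 0 < p) (h1 : p < 1) {h : (ι → Bool) → ℝ}
    (hh : ∀ x, h x = 0 ∨ h x = 1 ∨ h x = -1) (m : ℕ) {κ : ℝ} (hκ : 0 < κ) :
    ∑ R ∈ univ.filter (fun R : Finset ι => R.card ≤ m), hat p h R ^ 2 ≤
      κ * (E p fun x => h x ^ 2) +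
        ((p * (1 - p))⁻¹) ^ (2 * m) * (E p fun x => h x ^ 2) ^ 2 / κ ^ 3 := by
  set A := univ.filter (fun R : Finset ι => R.card ≤ m)
  have e1 := E_mul_synth (p := p) h A (hat p h)
  have b := bonami h0 h1 A m (fun R hR => (mem_filter.1 hR).2) (hat p h)
  have hle : ∑ R ∈ A, hat p h R ^ 2 ≤ E p fun x => h x ^ 2 := by
    rw [parseval h0 h1]
    exact sum_le_sum_of_subset_of_nonneg (subset_univ _) fun _ _ _ => sq_nonneg _
  have hB : 0 ≤ ((p * (1 - p))⁻¹) ^ (2 * m) := by
    have : 0 < p * (1 - p) := mul_pos h0 (by linarith)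
    positivity
  calc ∑ R ∈ A, hat p h R ^ 2 = E p fun x => h x * ∑ R ∈ A, hat p h R * chi p R x := by
        rw [e1]; simp only [sq]
    _ ≤ E p fun x => κ * h x ^ 2 + (∑ R ∈ A, hat p h R * chi p R x) ^ 4 / κ ^ 3 := by
        refine E_mono h0.le h1.le fun x => ?_
        have := abs_le_add_pow_four hκ (∑ R ∈ A, hat p h R * chi p R x)
        rcases hh x with e | e | e <;> rw [e]
        · simp only [zero_mul]; positivity
        · linarith [le_abs_self (∑ R ∈ A, hat p h R * chi p R x)]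
        · linarith [neg_abs_le (∑ R ∈ A, hat p h R * chi p R x)]
    _ = κ * (E p fun x => h x ^ 2) +
        (E p fun x => (∑ R ∈ A, hat p h R * chi p R x) ^ 4) / κ ^ 3 := by
        rw [E_add, E_const_mul, E_div_const]
    _ ≤ _ := by
        have : (∑ R ∈ A, hat p h R ^ 2) ^ 2 ≤ (E p fun x => h x ^ 2) ^ 2 :=
          pow_le_pow_left₀ (sum_nonneg fun _ _ => sq_nonneg _) hle 2
        have := b.trans (mul_le_mul_of_nonneg_left this hB)
        gcongr

lemma sum_mem_le (h0 : 0 < p) (h1 : p < 1) (g : (ι → Bool) → ℝ) (i : ι)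
    (A B : Finset (Finset ι)) (h : ∀ T ∈ A, i ∈ T ∧ T.erase i ∈ B) :
    ∑ T ∈ A, hat p g T ^ 2 ≤ p * (1 - p) * ∑ R ∈ B, hat p (dif i g) R ^ 2 := by
  have e : ∀ T ∈ A, hat p g T ^ 2 = p * (1 - p) * hat p (dif i g) (T.erase i) ^ 2 := by
    intro T hT
    conv_lhs => rw [← insert_erase (h T hT).1, hat_insert h0 h1 g (notMem_erase i T)]
    rw [mul_pow, sg_sq h0 h1]
  rw [sum_congr rfl e, ← mul_sum]
  refine mul_le_mul_of_nonneg_left ?_ (mul_pos h0 (by linarith)).le
  rw [← sum_image (f := fun R => hat p (dif i g) R ^ 2) (g := fun T : Finset ι => T.erase i)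
    (fun T hT T' hT' he => by
      rw [← insert_erase (h T hT).1, ← insert_erase (h T' hT').1]
      exact congrArg _ he)]
  refine sum_le_sum_of_subset_of_nonneg (fun R hR => ?_) fun _ _ _ => sq_nonneg _
  obtain ⟨T, hT, rfl⟩ := mem_image.1 hR
  exact (h T hT).2

lemma dirichlet (h0 : 0 < p) (h1 : p < 1) (f : (ι → Bool) → ℝ) :
    ∑ S : Finset ι, (S.card : ℝ) * hat p f S ^ 2 ≤ p * (1 - p) * tot p f := by
  have e : ∀ S : Finset ι, (S.card : ℝ) * hat p f S ^ 2 =
      ∑ i, if i ∈ S then hat p f S ^ 2 else 0 := by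
    intro S; simp
  simp only [e]
  rw [sum_comm, tot, mul_sum]
  refine sum_le_sum fun i _ => ?_
  rw [← sum_filter, piv, parseval h0 h1]
  exact sum_mem_le h0 h1 f i _ _ fun T hT => ⟨(mem_filter.1 hT).2, mem_univ _⟩

omit [Fintype ι] in
lemma IsBool.dif {g : (ι → Bool) → ℝ} (hg : IsBool g) (i : ι) (x : ι → Bool) :
    dif i g x = 0 ∨ dif i g x = 1 ∨ dif i g x = -1 := by
  unfold BF.dif
  rcases hg (Function.update x i true) with a | a <;>
    rcases hg (Function.update x i false) with b | b <;> simp [a, b]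

/-- Friedgut's estimate: small low-degree coefficients of a Boolean function carry little weight -/
lemma small_coeff (h0 : 0 < p) (h1 : p < 1) {g : (ι → Bool) → ℝ} (hg : IsBool g) (m : ℕ) {κ : ℝ}
    (hκ : 0 < κ) :
    ∑ T ∈ univ.filter (fun T : Finset ι => T ≠ ∅ ∧ T.card ≤ m),
      (if hat p g T ^ 2 < (κ ^ 5 * (p * (1 - p)) ^ (2 * m)) ^ T.card then hat p g T ^ 2 else 0) ≤
      3 * κ * tot p g := by
  have hs : 0 < p * (1 - p) := mul_pos h0 (by linarith)
  have hs4 : p * (1 - p) ≤ 1 / 4 := by nlinarith [sq_nonneg (p - 1 / 2)]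
  set τ := κ ^ 4 * (p * (1 - p)) ^ (2 * m) with hτ
  have hτ0 : 0 < τ := by positivity
  have hu : κ ^ 5 * (p * (1 - p)) ^ (2 * m) = κ * τ := by rw [hτ]; ring
  rw [hu]
  have hP := tot_nonneg h0.le h1.le g
  set A := univ.filter (fun T : Finset ι => T ≠ ∅ ∧ T.card ≤ m) with hA
  rcases le_or_gt 1 (κ * tot p g) with hc | hc
  · calc _ ≤ ∑ T ∈ A, hat p g T ^ 2 := sum_le_sum fun T _ => by
          split_ifs
          · exact le_rfl
          · exact sq_nonneg _
      _ ≤ ∑ T, hat p g T ^ 2 :=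
          sum_le_sum_of_subset_of_nonneg (subset_univ _) fun _ _ _ => sq_nonneg _
      _ = E p fun x => g x ^ 2 := (parseval h0 h1 g).symm
      _ ≤ E p fun _ => 1 := E_mono h0.le h1.le fun x => by rcases hg x with e | e <;> simp [e]
      _ = 1 := E_const 1
      _ ≤ _ := by linarith
  set Jn := univ.filter (fun i => τ ≤ piv p g i) with hJ
  have hM : (Jn.card : ℝ) * τ ≤ tot p g := by
    calc (Jn.card : ℝ) * τ = ∑ _i ∈ Jn, τ := by simp
      _ ≤ ∑ i ∈ Jn, piv p g i := sum_le_sum fun i hi => (mem_filter.1 hi).2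
      _ ≤ tot p g := sum_le_sum_of_subset_of_nonneg (subset_univ _)
          fun i _ _ => piv_nonneg h0.le h1.le g i
  have step : ∀ T ∈ A, (if hat p g T ^ 2 < (κ * τ) ^ T.card then hat p g T ^ 2 else 0) ≤
      (if T ∈ Jn.powerset then (κ * τ) ^ T.card else 0) +
        ∑ i ∈ Jnᶜ, if i ∈ T then hat p g T ^ 2 else 0 := by
    intro T _
    have n1 : 0 ≤ ∑ i ∈ Jnᶜ, if i ∈ T then hat p g T ^ 2 else 0 :=
      sum_nonneg fun i _ => by split_ifs <;> positivity
    by_cases hT : T ∈ Jn.powerset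
    · rw [if_pos hT]
      split_ifs with h
      · linarith
      · positivity
    · rw [if_neg hT, zero_add]
      obtain ⟨i, hi, hi'⟩ := not_subset.1 (mt mem_powerset.2 hT)
      have := single_le_sum (f := fun i => if i ∈ T then hat p g T ^ 2 else 0)
        (fun i (_ : i ∈ Jnᶜ) => by split_ifs <;> positivity) (mem_compl.2 hi')
      simp only [hi, if_true] at this
      refine le_trans ?_ this
      split_ifs
      · exact le_rfl
      · exact sq_nonneg _
  have part1 : ∑ T ∈ A, (if T ∈ Jn.powerset then (κ * τ) ^ T.card else 0) ≤ 2 * κ * tot p g := by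
    have a1 : ∑ T ∈ A, (if T ∈ Jn.powerset then (κ * τ) ^ T.card else 0) ≤
        ∑ T ∈ Jn.powerset.erase ∅, (κ * τ) ^ T.card := by
      rw [← sum_filter]
      refine sum_le_sum_of_subset_of_nonneg (fun T hT => ?_) fun _ _ _ => by positivity
      simp only [hA, mem_filter, mem_univ, true_and] at hT
      exact mem_erase.2 ⟨hT.1.1, hT.2⟩
    have a2 : ∑ T ∈ Jn.powerset.erase ∅, (κ * τ) ^ T.card = (1 + κ * τ) ^ Jn.card - 1 := by
      have := add_sum_erase Jn.powerset (fun T => (κ * τ) ^ T.card) (empty_mem_powerset Jn)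
      have e := prod_one_add (f := fun _ : ι => κ * τ) Jn
      simp only [prod_const] at e
      simp only [card_empty, pow_zero] at this
      rw [e, ← this]; ring
    have a3 : (1 + κ * τ) ^ Jn.card ≤ Real.exp (Jn.card * (κ * τ)) := by
      rw [Real.exp_nat_mul]
      exact pow_le_pow_left₀ (by positivity) (by linarith [Real.add_one_le_exp (κ * τ)]) _
    have a4 : (Jn.card : ℝ) * (κ * τ) ≤ κ * tot p g := by nlinarith
    have a5 : 0 ≤ (Jn.card : ℝ) * (κ * τ) := by positivity
    have a6 := Real.abs_exp_sub_one_le (x := Jn.card * (κ * τ))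
      (by rw [abs_of_nonneg a5]; linarith)
    rw [abs_of_nonneg a5] at a6
    linarith [le_abs_self (Real.exp (Jn.card * (κ * τ)) - 1)]
  have part2 : ∑ T ∈ A, ∑ i ∈ Jnᶜ, (if i ∈ T then hat p g T ^ 2 else 0) ≤ κ * tot p g := by
    rw [sum_comm]
    calc _ ≤ ∑ i ∈ Jnᶜ, κ * piv p g i := by
          refine sum_le_sum fun i hi => ?_
          have hi' : piv p g i < τ := by simpa [hJ] using hi
          have hπ := piv_nonneg h0.le h1.le g i
          rw [← sum_filter]
          refine (sum_mem_le h0 h1 g i _ (univ.filter fun R : Finset ι => R.card ≤ m)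
            fun T hT => ?_).trans ?_
          · simp only [hA, mem_filter, mem_univ, true_and] at hT ⊢
            exact ⟨hT.2, card_erase_le.trans hT.1.2⟩
          · have l := level h0 h1 (hg.dif i) m hκ
            rw [← piv] at l
            have l2 : ((p * (1 - p))⁻¹) ^ (2 * m) * piv p g i ^ 2 / κ ^ 3 ≤ κ * piv p g i := by
              rw [div_le_iff₀ (by positivity), inv_pow, inv_mul_le_iff₀ (by positivity)]
              calc piv p g i ^ 2 = piv p g i * piv p g i := sq _
                _ ≤ τ * piv p g i := by gcongr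
                _ = _ := by rw [hτ]; ring
            have l3 : 0 ≤ κ * piv p g i := by positivity
            have l4 : 0 ≤ ∑ R ∈ univ.filter (fun R : Finset ι => R.card ≤ m),
                hat p (BF.dif i g) R ^ 2 := sum_nonneg fun _ _ => sq_nonneg _
            nlinarith
      _ ≤ ∑ i, κ * piv p g i := sum_le_sum_of_subset_of_nonneg (subset_univ _)
          fun i _ _ => mul_nonneg hκ.le (piv_nonneg h0.le h1.le g i)
      _ = κ * tot p g := by rw [tot, mul_sum]
  refine (sum_le_sum step).trans ?_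
  rw [sum_add_distrib]
  linarith

end Crest.Agent.R56
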