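import Crest.Agent.R56.Comb

/-!
Row 56: the low-degree weight of a symmetric Boolean function of small influence is small.
-/

set_option autoImplicit false

namespace Crest.Agent.R56

open Finset Crest.Agent.BF

variable {ι : Type*} [Fintype ι] [DecidableEq ι] {p : ℝ} {n r : ℕ}

/-- `⌈d / l⌉` -/
def tt (l d : ℕ) : ℕ := (d + l - 1) / l

lemma tt_spec {l : ℕ} (hl : 0 < l) (d : ℕ) : d ≤ l * tt l d ∧ l * tt l d < d + l := by
  have h1 := Nat.div_add_mod (d + l - 1) l
  have h2 := Nat.mod_lt (d + l - 1) hl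
  unfold tt
  constructor <;> omega

lemma tt_mono (l : ℕ) {d d' : ℕ} (h : d ≤ d') : tt l d ≤ tt l d' :=
  Nat.div_le_div_right (by omega)

lemma tt_pos {l d : ℕ} (hl : 0 < l) (hd : 0 < d) : 0 < tt l d := by
  have := (tt_spec hl d).1
  rcases Nat.eq_zero_or_pos (tt l d) with h | h
  · rw [h] at this; omega
  · exact h

lemma one_sub_inv_pow_ge {l : ℕ} (hl : 2 ≤ l) : Real.exp (-2) ≤ (1 - 1 / (l : ℝ)) ^ l := by
  have hl' : (2 : ℝ) ≤ l := by exact_mod_cast hl
  have h1 : Real.exp (-(2 / l)) ≤ 1 - 1 / (l : ℝ) := by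
    have a := Real.add_one_le_exp (2 / (l : ℝ))
    rw [Real.exp_neg]
    refine (inv_anti₀ (by positivity) a).trans ?_
    rw [inv_le_comm₀ (by positivity) (by rw [sub_pos, div_lt_one (by linarith)]; linarith),
      inv_le_iff_one_le_mul₀ (by rw [sub_pos, div_lt_one (by linarith)]; linarith)]
    field_simp
    nlinarith
  calc Real.exp (-2) = Real.exp (-(2 / l)) ^ l := by
        rw [← Real.exp_nat_mul]; congr 1; field_simp
    _ ≤ _ := pow_le_pow_left₀ (Real.exp_pos _).le h1 _

omit [Fintype ι] in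
lemma wide_lower {vs : ι → Finset (Fin n)} (hr : ∀ i, (vs i).card = r) (hr1 : 1 ≤ r)
    (hinj : Function.Injective vs) {l d0 : ℕ} (hl : 2 ≤ l)
    (hC : 2 * r ^ r * d0 ^ (r - 1) ≤ l ^ r) (S : Finset ι) (hS0 : 0 < S.card) (hS : S.card ≤ d0) :
    Real.exp (-4 * tt l d0) / l ≤ (wide vs S (tt l S.card)).card *
      ((1 / (l : ℝ)) ^ tt l S.card * (1 - 1 / (l : ℝ)) ^ S.card) := by
  set d := S.card with hd
  set t := tt l d with ht
  have hl0 : 0 < l := by omega
  obtain ⟨s1, s2⟩ := tt_spec hl0 d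
  rw [← ht] at s1 s2
  have t1 : 0 < t := tt_pos hl0 hS0
  have tm : t ≤ tt l d0 := tt_mono l hS
  have cnt := wide_count hr hinj S t fun j hj => by
    have a1 : l * j ≤ d := by
      have : l * (j + 1) ≤ l * t := Nat.mul_le_mul_left _ hj
      rw [mul_add] at this; omega
    refine Nat.le_of_mul_le_mul_left ?_ (pow_pos hl0 r)
    calc l ^ r * (2 * (r * j) ^ r) = 2 * r ^ r * (l * j) ^ r := by rw [mul_pow, mul_pow]; ring
      _ ≤ 2 * r ^ r * d ^ r := by gcongr
      _ = 2 * r ^ r * d ^ (r - 1) * d := by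
          conv_lhs => rw [show r = r - 1 + 1 by omega, pow_succ d]
          rw [show r - 1 + 1 = r by omega]; ring
      _ ≤ 2 * r ^ r * d0 ^ (r - 1) * d := by gcongr
      _ ≤ l ^ r * d := Nat.mul_le_mul_right _ hC
  rw [← hd] at cnt
  have cnt2 : d ^ t ≤ (2 * t) ^ t * (wide vs S t).card := by
    refine cnt.trans (Nat.mul_le_mul_right _ ?_)
    rw [mul_pow]; exact Nat.mul_le_mul_left _ (Nat.factorial_le_pow t)
  have hl' : (2 : ℝ) ≤ l := by exact_mod_cast hl
  have t1' : (1 : ℝ) ≤ t := by exact_mod_cast t1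
  have cnt3 : ((d : ℝ) / (2 * t)) ^ t ≤ (wide vs S t).card := by
    rw [div_pow, div_le_iff₀' (by positivity)]
    exact_mod_cast cnt2
  have q0 : 0 ≤ 1 - 1 / (l : ℝ) := by rw [sub_nonneg, div_le_one (by linarith)]; linarith
  have q1 : 1 - 1 / (l : ℝ) ≤ 1 := by have : 0 ≤ 1 / (l : ℝ) := by positivity
                                      linarith
  have b1 : Real.exp (-2) ^ t ≤ (1 - 1 / (l : ℝ)) ^ d := by
    calc _ ≤ ((1 - 1 / (l : ℝ)) ^ l) ^ t :=
          pow_le_pow_left₀ (Real.exp_pos _).le (one_sub_inv_pow_ge hl) _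
      _ = (1 - 1 / (l : ℝ)) ^ (l * t) := (pow_mul _ _ _).symm
      _ ≤ _ := pow_le_pow_of_le_one q0 q1 s1
  have e4 : Real.exp (-2) ≤ 1 / 4 := by
    rw [Real.exp_neg, inv_le_comm₀ (Real.exp_pos _) (by norm_num)]
    have := Real.add_one_le_exp 1
    have e : Real.exp 2 = Real.exp 1 * Real.exp 1 := by rw [← Real.exp_add]; norm_num
    nlinarith
  have b2 : Real.exp (-2) ^ t / l ≤ ((d : ℝ) / (2 * t) * (1 / l)) ^ t := by
    have d1 : (1 : ℝ) ≤ d := by exact_mod_cast hS0
    rcases Nat.lt_or_ge t 2 with h | h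
    · have : t = 1 := by omega
      rw [this]
      simp only [pow_one, Nat.cast_one, mul_one]
      rw [div_eq_mul_one_div]
      refine mul_le_mul_of_nonneg_right ?_ (by positivity)
      linarith
    · have a1 : l * t ≤ 2 * d := by nlinarith
      have a2 : (l : ℝ) * t ≤ 2 * d := by exact_mod_cast a1
      calc _ ≤ Real.exp (-2) ^ t := div_le_self (by positivity) (by linarith)
        _ ≤ _ := by
          refine pow_le_pow_left₀ (Real.exp_pos _).le (e4.trans ?_) _
          rw [div_mul_div_comm, div_le_div_iff₀ (by norm_num) (by positivity)]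
          nlinarith
  have tm' : (t : ℝ) ≤ tt l d0 := by exact_mod_cast tm
  calc Real.exp (-4 * tt l d0) / l ≤ Real.exp (-4 * t) / l := by
        exact div_le_div_of_nonneg_right (Real.exp_le_exp.2 (by linarith)) (by linarith)
    _ = Real.exp (-2) ^ t / l * Real.exp (-2) ^ t := by
        rw [div_mul_eq_mul_div, ← Real.exp_nat_mul, ← Real.exp_add]; congr 2; ring
    _ ≤ ((d : ℝ) / (2 * t) * (1 / l)) ^ t * (1 - 1 / (l : ℝ)) ^ d :=
        mul_le_mul b2 b1 (by positivity) (by positivity)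
    _ ≤ _ := by
        rw [mul_pow, mul_assoc]
        exact mul_le_mul_of_nonneg_right cnt3 (mul_nonneg (by positivity) (pow_nonneg q0 _))

theorem low_weight (h0 : 0 < p) (h1 : p < 1) {vs : ι → Finset (Fin n)}
    (hr : ∀ i, (vs i).card = r) (hr1 : 1 ≤ r) (hinj : Function.Injective vs)
    {f : (ι → Bool) → ℝ} (hf : IsBool f) (hs : Symm vs f) {l d0 : ℕ} (hl : 2 ≤ l)
    (hC : 2 * r ^ r * d0 ^ (r - 1) ≤ l ^ r) (hm : 2 * tt l d0 ≤ n) (hn : 0 < n) {K α : ℝ}
    (hK : 0 < K) (hα : α = Real.exp (-4 * tt l d0) / l)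
    (hX : ((p * (1 - p))⁻¹) ^ (2 * l) * (2 * r * d0 / n) ≤
      1 / 4 * (α / 8) ^ 3 * ((α / (24 * K)) ^ 5 * (p * (1 - p)) ^ (2 * tt l d0)))
    (htot : tot p f ≤ K * var p f) :
    ∑ S ∈ univ.filter (fun S : Finset ι => S ≠ ∅ ∧ S.card ≤ d0), hat p f S ^ 2 ≤
      var p f / 2 := by
  classical
  have hs0 : 0 < p * (1 - p) := mul_pos h0 (by linarith)
  have hl0 : 0 < l := by omega
  have hl' : (2 : ℝ) ≤ l := by exact_mod_cast hl
  have hα0 : 0 < α := by rw [hα]; positivity
  have hα1 : α ≤ 1 := by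
    rw [hα, div_le_one (by linarith)]
    have : Real.exp (-4 * tt l d0) ≤ 1 := Real.exp_le_one_iff.2 (by
      have : (0 : ℝ) ≤ tt l d0 := Nat.cast_nonneg _
      linarith)
    linarith
  let good : Finset ι → Finset ι → Prop := fun T S =>
    S ≠ ∅ ∧ S.card ≤ d0 ∧ T.card = tt l S.card ∧ T.card ≤ (T.biUnion vs).card
  have hg : ∀ T S, good T S → T ≠ ∅ ∧ T.card ≤ tt l d0 := fun T S h => by
    refine ⟨?_, h.2.2.1 ▸ tt_mono l h.2.1⟩
    rw [← nonempty_iff_ne_empty, ← card_pos, h.2.2.1]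
    exact tt_pos hl0 (card_pos.2 (nonempty_iff_ne_empty.2 h.1))
  have key := restrict_bound h0 h1 hf good (tt l d0) (a := α / 8) (κ := α / (24 * K))
    (by positivity) (by positivity) hg (fun T => by
      refine ⟨l * T.card, fun S h => by rw [h.2.2.1]; exact (tt_spec hl0 _).1, ?_⟩
      by_cases hT : ∃ S, good T S
      · obtain ⟨S0, hS0⟩ := hT
        obtain ⟨U, hU, hUc⟩ := exists_subset_card_eq hS0.2.2.2
        have a1 := symm_bound h0 h1 hr hf hs d0 U (by have := (hg _ _ hS0).2; omega) hn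
        have a2 : ∑ S ∈ univ.filter (fun S => T ⊆ S ∧ good T S), hat p f S ^ 2 ≤
            (2 * r * d0 / n) ^ T.card := by
          rw [hUc] at a1
          refine le_trans (sum_le_sum_of_subset_of_nonneg (fun S hS => ?_)
            fun _ _ _ => sq_nonneg _) a1
          simp only [mem_filter, mem_univ, true_and] at hS ⊢
          exact ⟨hU.trans (biUnion_subset_biUnion_of_subset_left vs hS.1), hS.2.2.1⟩
        have t1 : T.card ≠ 0 := by
          rw [← pos_iff_ne_zero, card_pos, nonempty_iff_ne_empty]; exact (hg _ _ hS0).1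
        have a3 : (1 / 4 * (α / 8) ^ 3) ^ T.card ≤ 1 / 4 * (α / 8) ^ 3 := by
          refine pow_le_of_le_one (by positivity) ?_ t1
          have : (α / 8) ^ 3 ≤ 1 := pow_le_one₀ (by positivity) (by linarith)
          linarith
        calc _ ≤ ((p * (1 - p))⁻¹) ^ (2 * (l * T.card)) * (2 * r * d0 / n) ^ T.card :=
              mul_le_mul_of_nonneg_left a2 (by positivity)
          _ = (((p * (1 - p))⁻¹) ^ (2 * l) * (2 * r * d0 / n)) ^ T.card := by
              rw [mul_pow, ← pow_mul, mul_assoc 2 l]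
          _ ≤ _ := pow_le_pow_left₀ (by positivity) hX _
          _ ≤ _ := by
              rw [mul_pow, ← mul_assoc]
              exact mul_le_mul_of_nonneg_right a3 (by positivity)
      · rw [filter_false_of_mem fun S _ h => hT ⟨S, h.2⟩, sum_empty, mul_zero]
        positivity)
  have θ0 : (0 : ℝ) ≤ 1 / l := by positivity
  have θ1 : (1 : ℝ) / l ≤ 1 := by rw [div_le_one (by linarith)]; linarith
  have avg : α * ∑ S ∈ univ.filter (fun S : Finset ι => S ≠ ∅ ∧ S.card ≤ d0), hat p f S ^ 2 ≤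
      2 * (α / 8) * var p f + 6 * (α / (24 * K)) * tot p f := by
    rw [← E_const (ι := ι) (p := 1 / l) (2 * (α / 8) * var p f + 6 * (α / (24 * K)) * tot p f)]
    refine le_trans ?_ (E_mono θ0 θ1 fun y => key (sel y))
    simp only [sum_filter (fun S => good (S ∩ sel _) S), E_sum]
    rw [mul_sum, sum_filter]
    refine sum_le_sum fun S _ => ?_
    split_ifs with hS
    · have c0 : 0 < S.card := card_pos.2 (nonempty_iff_ne_empty.2 hS.1)
      have w := (wide_lower hr hr1 hinj hl hC S c0 hS.2).trans (prob_wide θ0 θ1 vs S _)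
      rw [← hα] at w
      refine (mul_le_mul_of_nonneg_right w (sq_nonneg _)).trans ?_
      rw [← E_mul_const]
      refine E_mono θ0 θ1 fun y => ?_
      split_ifs with a b
      · rw [one_mul]
      · exfalso
        obtain ⟨a1, a2⟩ := mem_filter.1 a
        have a3 := (mem_powersetCard.1 a1).2
        exact b ⟨hS.1, hS.2, a3, a3 ▸ a2⟩
      · rw [zero_mul]; exact sq_nonneg _
      · rw [zero_mul]
    · exact E_nonneg θ0 θ1 fun y => by split_ifs <;> positivity
  have fin : 6 * (α / (24 * K)) * tot p f ≤ α / 4 * var p f := by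
    calc _ ≤ 6 * (α / (24 * K)) * (K * var p f) :=
          mul_le_mul_of_nonneg_left htot (by positivity)
      _ = _ := by field_simp; ring
  refine le_of_mul_le_mul_left ?_ hα0
  linarith

end Crest.Agent.R56
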