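import Crest.Agent.R56.Junta

/-!
Row 56: the estimate for one restriction `J`.
-/

set_option autoImplicit false

namespace Crest.Agent.R56

open Finset Crest.Agent.BF

variable {ι : Type*} [Fintype ι] [DecidableEq ι] {p : ℝ}

/-- variance -/
def var (p : ℝ) (f : (ι → Bool) → ℝ) : ℝ := (E p fun x => f x ^ 2) - E p f ^ 2

lemma var_eq (h0 : 0 < p) (h1 : p < 1) (f : (ι → Bool) → ℝ) :
    var p f = ∑ S ∈ univ.erase (∅ : Finset ι), hat p f S ^ 2 := by
  rw [var, parseval h0 h1, ← add_sum_erase _ _ (mem_univ ∅), hat_empty]; ring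

lemma pointwise {a η : ℝ} (ha : 0 < a) (hη : 0 < η) (F G : ℝ) :
    F * G ≤ a * F ^ 2 + G ^ 4 / (a ^ 3 * η) + 1 / 4 * G ^ 2 + if F ^ 2 < η then F ^ 2 else 0 := by
  have n1 : 0 ≤ a * F ^ 2 := by positivity
  have n2 : 0 ≤ G ^ 4 / (a ^ 3 * η) := by positivity
  split_ifs with h
  · nlinarith [sq_nonneg (G / 2 - F)]
  · push Not at h
    have hF : 0 < |F| := abs_pos.2 fun e => by rw [e] at h; linarith
    have k := abs_le_add_pow_four (mul_pos ha hF) G
    have e1 : F * G ≤ |F| * |G| := by rw [← abs_mul]; exact le_abs_self _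
    have e2 : |F| * (a * |F| + G ^ 4 / (a * |F|) ^ 3) = a * F ^ 2 + G ^ 4 / (a ^ 3 * F ^ 2) := by
      rw [← sq_abs F]; field_simp
    have e3 : G ^ 4 / (a ^ 3 * F ^ 2) ≤ G ^ 4 / (a ^ 3 * η) := by gcongr
    have e4 := mul_le_mul_of_nonneg_left k hF.le
    nlinarith [sq_nonneg G]

omit [Fintype ι] in
lemma chi_union_mix {J T R : Finset ι} (hT : T ⊆ J) (hR : Disjoint R J) (y z : ι → Bool) :
    chi p (T ∪ R) (mix J y z) = chi p T y * chi p R z := by
  rw [chi, prod_union (hR.symm.mono_left hT), chi, chi]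
  congr 1
  · exact prod_congr rfl fun i hi => by simp [mix, hT hi]
  · exact prod_congr rfl fun i hi => by simp [mix, disjoint_left.1 hR hi]

lemma hat_restrict (f : (ι → Bool) → ℝ) {J T R : Finset ι} (hT : T ⊆ J) (hR : Disjoint R J) :
    hat p (fun z => hat p (fun y => f (mix J y z)) T) R = hat p f (T ∪ R) := by
  rw [hat, hat, ← E_mix J fun x => f x * chi p (T ∪ R) x]
  congr 1; funext z
  rw [hat, ← E_mul_const]
  congr 1; funext y
  rw [chi_union_mix hT hR, mul_assoc]

lemma E_tot_restrict (h0 : 0 ≤ p) (h1 : p ≤ 1) (f : (ι → Bool) → ℝ) (J : Finset ι) :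
    E p (fun z => tot p fun y => f (mix J y z)) ≤ tot p f := by
  simp only [tot, E_sum]
  refine sum_le_sum fun i _ => ?_
  rw [piv, ← E_mix J fun x => dif i f x ^ 2]
  refine E_mono h0 h1 fun z => E_mono h0 h1 fun y => ?_
  by_cases hi : i ∈ J
  · have : ∀ b, mix J (Function.update y i b) z = Function.update (mix J y z) i b := by
      intro b; funext j
      by_cases hj : j = i
      · subst hj; simp [mix, hi]
      · simp [mix, Function.update_of_ne hj]
    simp only [dif, this, le_refl]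
  · have : ∀ b, mix J (Function.update y i b) z = mix J y z := by
      intro b; funext j
      by_cases hj : j ∈ J
      · have : j ≠ i := fun e => hi (e ▸ hj)
        simp [mix, hj, Function.update_of_ne this]
      · simp [mix, hj]
    have e : dif i (fun y => f (mix J y z)) y = 0 := by simp only [dif, this, sub_self]
    rw [e, zero_pow two_ne_zero]
    exact sq_nonneg _

lemma E_var_restrict (h0 : 0 ≤ p) (h1 : p ≤ 1) (f : (ι → Bool) → ℝ) (J : Finset ι) :
    E p (fun z => var p fun y => f (mix J y z)) ≤ var p f := by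
  simp only [var, E_sub]
  rw [E_mix J fun x => f x ^ 2, ← E_mix J f]
  linarith [sq_E_le h0 h1 fun z => E p fun y => f (mix J y z)]

theorem restrict_bound (h0 : 0 < p) (h1 : p < 1) {f : (ι → Bool) → ℝ} (hf : IsBool f)
    (good : Finset ι → Finset ι → Prop) [DecidableRel good] (m : ℕ) {a κ : ℝ} (ha : 0 < a)
    (hκ : 0 < κ) (hg : ∀ T S, good T S → T ≠ ∅ ∧ T.card ≤ m)
    (hW : ∀ T : Finset ι, ∃ d : ℕ, (∀ S, good T S → S.card ≤ d) ∧
      ((p * (1 - p))⁻¹) ^ (2 * d) * ∑ S ∈ univ.filter (fun S => T ⊆ S ∧ good T S), hat p f S ^ 2 ≤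
        1 / 4 * (a ^ 3 * (κ ^ 5 * (p * (1 - p)) ^ (2 * m)) ^ T.card))
    (J : Finset ι) :
    ∑ S ∈ univ.filter (fun S => good (S ∩ J) S), hat p f S ^ 2 ≤
      2 * a * var p f + 6 * κ * tot p f := by
  have hs : 0 < p * (1 - p) := mul_pos h0 (by linarith)
  set u := κ ^ 5 * (p * (1 - p)) ^ (2 * m) with hu
  have hu0 : 0 < u := by positivity
  set F : Finset ι → (ι → Bool) → ℝ := fun T z => hat p (fun y => f (mix J y z)) T with hF
  set A : Finset ι → Finset (Finset ι) :=
    fun T => univ.filter fun R => Disjoint R J ∧ good T (T ∪ R) with hA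
  set 𝒯 := univ.filter (fun T : Finset ι => T ≠ ∅ ∧ T.card ≤ m) with h𝒯
  set 𝒯' := 𝒯.filter (fun T => T ⊆ J) with h𝒯'
  -- the estimate for one `T`
  have one : ∀ T ∈ 𝒯', ∑ R ∈ A T, hat p f (T ∪ R) ^ 2 ≤ 2 * a * (E p fun z => F T z ^ 2) +
      2 * E p fun z => if F T z ^ 2 < u ^ T.card then F T z ^ 2 else 0 := by
    intro T hT
    have hTJ : T ⊆ J := (mem_filter.1 hT).2
    obtain ⟨d, hd, hWd⟩ := hW T
    set N := ∑ R ∈ A T, hat p f (T ∪ R) ^ 2 with hN
    have hN0 : 0 ≤ N := sum_nonneg fun _ _ => sq_nonneg _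
    set G : (ι → Bool) → ℝ := fun z => ∑ R ∈ A T, hat p f (T ∪ R) * chi p R z with hG
    have e1 : E p (fun z => F T z * G z) = N := by
      rw [hG, E_mul_synth]
      refine sum_congr rfl fun R hR => ?_
      rw [hF, hat_restrict f hTJ (mem_filter.1 hR).2.1, sq]
    have e2 : E p (fun z => G z ^ 2) = N := E_synth_sq h0 h1 _ _
    have e3 : E p (fun z => G z ^ 4) ≤ ((p * (1 - p))⁻¹) ^ (2 * d) * N ^ 2 :=
      bonami h0 h1 _ d (fun R hR =>
        (card_le_card subset_union_right).trans (hd _ (mem_filter.1 hR).2.2)) _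
    have e4 : N ≤ ∑ S ∈ univ.filter (fun S => T ⊆ S ∧ good T S), hat p f S ^ 2 := by
      rw [hN, ← sum_image (f := fun S => hat p f S ^ 2) (g := fun R : Finset ι => T ∪ R)
        (fun R hR R' hR' he => by
          have d1 : Disjoint T R := ((mem_filter.1 hR).2.1.symm).mono_left hTJ
          have d2 : Disjoint T R' := ((mem_filter.1 hR').2.1.symm).mono_left hTJ
          rw [← union_sdiff_cancel_left d1, ← union_sdiff_cancel_left d2]
          exact congrArg (· \ T) he)]
      refine sum_le_sum_of_subset_of_nonneg (fun S hS => ?_) fun _ _ _ => sq_nonneg _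
      obtain ⟨R, hR, rfl⟩ := mem_image.1 hS
      exact mem_filter.2 ⟨mem_univ _, subset_union_left, (mem_filter.1 hR).2.2⟩
    have hη : 0 < u ^ T.card := by positivity
    have e5 : E p (fun z => G z ^ 4) / (a ^ 3 * u ^ T.card) ≤ 1 / 4 * N := by
      rw [div_le_iff₀ (by positivity)]
      have b1 : ((p * (1 - p))⁻¹) ^ (2 * d) * N ≤ 1 / 4 * (a ^ 3 * u ^ T.card) :=
        le_trans (mul_le_mul_of_nonneg_left e4 (by positivity)) hWd
      calc _ ≤ ((p * (1 - p))⁻¹) ^ (2 * d) * N * N := by rw [mul_assoc, ← sq]; exact e3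
        _ ≤ 1 / 4 * (a ^ 3 * u ^ T.card) * N := mul_le_mul_of_nonneg_right b1 hN0
        _ = _ := by ring
    have e6 := E_mono h0.le h1.le fun z => pointwise ha hη (F T z) (G z)
    rw [e1, E_add, E_add, E_add, E_const_mul, E_const_mul, E_div_const, e2] at e6
    linarith
  -- regrouping
  have regroup : ∑ S ∈ univ.filter (fun S => good (S ∩ J) S), hat p f S ^ 2 ≤
      ∑ T ∈ 𝒯', ∑ R ∈ A T, hat p f (T ∪ R) ^ 2 := by
    rw [sum_sigma']
    have hinj : Set.InjOn (fun S : Finset ι => (⟨S ∩ J, S \ J⟩ : Σ _ : Finset ι, Finset ι))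
        (univ.filter (fun S => good (S ∩ J) S) : Finset (Finset ι)) := by
      intro S _ S' _ he
      simp only [Sigma.mk.injEq, heq_eq_eq] at he
      rw [← sdiff_union_inter S J, ← sdiff_union_inter S' J, he.1, he.2]
    have e : ∀ S : Finset ι, S ∩ J ∪ S \ J = S := fun S => by
      rw [union_comm, sdiff_union_inter]
    have := sum_image (f := fun q : (Σ _ : Finset ι, Finset ι) => hat p f (q.1 ∪ q.2) ^ 2) hinj
    simp only [e] at this
    rw [← this]
    refine sum_le_sum_of_subset_of_nonneg (fun q hq => ?_) fun _ _ _ => sq_nonneg _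
    obtain ⟨S, hS, rfl⟩ := mem_image.1 hq
    have hS' := (mem_filter.1 hS).2
    simp only [mem_sigma, h𝒯', h𝒯, hA, mem_filter, mem_univ, true_and, e]
    exact ⟨⟨hg _ _ hS', inter_subset_right⟩, sdiff_disjoint, hS'⟩
  have s1 : ∑ T ∈ 𝒯', (E p fun z => F T z ^ 2) ≤ var p f := by
    rw [← E_sum]
    refine le_trans (E_mono h0.le h1.le fun z => ?_) (E_var_restrict h0.le h1.le f J)
    rw [var_eq h0 h1]
    refine sum_le_sum_of_subset_of_nonneg (fun T hT => ?_) fun _ _ _ => sq_nonneg _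
    exact mem_erase.2 ⟨(mem_filter.1 (mem_filter.1 hT).1).2.1, mem_univ _⟩
  have s2 : ∑ T ∈ 𝒯', (E p fun z => if F T z ^ 2 < u ^ T.card then F T z ^ 2 else 0) ≤
      3 * κ * tot p f := by
    rw [← E_sum]
    calc _ ≤ E p fun z => 3 * κ * tot p fun y => f (mix J y z) := by
          refine E_mono h0.le h1.le fun z => ?_
          refine le_trans ?_ (small_coeff h0 h1 (g := fun y => f (mix J y z))
            (fun y => hf _) m hκ)
          exact sum_le_sum_of_subset_of_nonneg (filter_subset _ _)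
            fun _ _ _ => by split_ifs <;> positivity
      _ ≤ _ := by
          rw [E_const_mul]
          exact mul_le_mul_of_nonneg_left (E_tot_restrict h0.le h1.le f J) (by positivity)
  refine regroup.trans ((sum_le_sum one).trans ?_)
  rw [sum_add_distrib, ← mul_sum, ← mul_sum]
  nlinarith

end Crest.Agent.R56
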